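import Vale.Agent.P267.Stmt3

/-! Locally constant cocycles. -/

open Set Filter
open scoped Manifold ContDiff Topology

noncomputable section

namespace Vale.Agent.P267X

open Vale.Agent.P267

set_option linter.unusedSectionVars false

variable {X : Type} [TopologicalSpace X]

/-- Cocycles of a constant sheaf. -/
def Coc {A : Type} [AddCommGroup A] (F : X → X → A) : Prop :=
  ∀ p, ∀ᶠ q in 𝓝 p, ∀ᶠ y in 𝓝 q, F p y - F q y = F p q - F q q

/-- Coboundaries of a constant sheaf. -/
def Cob {A : Type} [AddCommGroup A] (F : X → X → A) : Prop :=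
  ∃ s : X → A, ∀ p, ∀ᶠ y in 𝓝 p, F p y - s y = F p p - s p

end Vale.Agent.P267X
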