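import Vale.Agent.P267X.Defs

/-! The covering space of an integral cocycle. -/

open Set Filter
open scoped Manifold ContDiff Topology

noncomputable section

namespace Vale.Agent.P267X

set_option linter.unusedSectionVars false

variable {X : Type} [TopologicalSpace X]

/-- The total space. -/
structure Et (F : X → X → ℤ) where
  pt : X
  ht : ℤ

variable {F : X → X → ℤ}

/-- The local sheet through a point. -/
def Et.sh (m : Et F) (q : X) : Et F := ⟨q, m.ht + F m.pt q - F m.pt m.pt⟩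

/-- The translation. -/
def Et.tr (k : ℤ) (m : Et F) : Et F := ⟨m.pt, m.ht + k⟩

theorem Et.sh_self (m : Et F) : m.sh m.pt = m := by
  simp [Et.sh]

theorem Et.tr_sh (k : ℤ) (m : Et F) (q : X) : (m.sh q).tr k = (m.tr k).sh q := by
  simp only [Et.sh, Et.tr]
  congr 1
  ring

theorem Et.tr_tr (k l : ℤ) (m : Et F) : (m.tr k).tr l = m.tr (k + l) := by
  simp only [Et.tr, add_assoc]

theorem Et.tr_zero (m : Et F) : m.tr 0 = m := by
  simp [Et.tr]

instance : TopologicalSpace (Et F) where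
  IsOpen U := ∀ m ∈ U, ∀ᶠ q in 𝓝 m.pt, m.sh q ∈ U
  isOpen_univ := fun _ _ => Eventually.of_forall fun _ => trivial
  isOpen_inter := fun _ _ h h' m hm => (h m hm.1).and (h' m hm.2)
  isOpen_sUnion := fun _ h m ⟨U, hU, hm⟩ => (h U hU m hm).mono fun _ hq => ⟨U, hU, hq⟩

/-- The domain of the sheets at `p`. -/
def dom (F : X → X → ℤ) (p : X) : Set X :=
  interior {q | ∀ᶠ y in 𝓝 q, F p y - F q y = F p q - F q q}

theorem mem_dom (h : Coc F) (p : X) : p ∈ dom F p := mem_interior_iff_mem_nhds.2 (h p)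

theorem sh_sh (m : Et F) {q : X} (hq : q ∈ dom F m.pt) : ∀ᶠ y in 𝓝 q, (m.sh q).sh y = m.sh y := by
  have h : ∀ᶠ y in 𝓝 q, F m.pt y - F q y = F m.pt q - F q q :=
    interior_subset (s := {q | ∀ᶠ y in 𝓝 q, F m.pt y - F q y = F m.pt q - F q q}) hq
  filter_upwards [h] with y hy
  simp only [Et.sh]
  congr 1
  linarith

theorem cont_pt : Continuous (Et.pt : Et F → X) :=
  continuous_def.2 fun _ hU _ hm => hU.mem_nhds hm

theorem cont_tr (k : ℤ) : Continuous (Et.tr k : Et F → Et F) :=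
  continuous_def.2 fun _ hU m hm => (hU _ hm).mono fun q hq => by
    rwa [mem_preimage, Et.tr_sh]

theorem cont_sh (m : Et F) {q : X} (hq : q ∈ dom F m.pt) : ContinuousAt m.sh q := by
  refine continuousAt_def.2 fun A hA => ?_
  obtain ⟨U, h1, h2, h3⟩ := mem_nhds_iff.1 hA
  filter_upwards [h2 _ h3, sh_sh m hq] with y k1 k2
  exact h1 (k2 ▸ k1)

theorem open_sh (m : Et F) {V : Set X} (hV : IsOpen V) (h : V ⊆ dom F m.pt) :
    IsOpen (m.sh '' V) := by
  rintro _ ⟨q, hq, rfl⟩
  filter_upwards [sh_sh m (h hq), hV.mem_nhds hq] with y k1 k2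
  exact ⟨y, k2, k1.symm⟩

theorem et_lh (h : Coc F) : IsLocalHomeomorph (Et.pt : Et F → X) := fun m =>
  ⟨{ toFun := Et.pt, invFun := m.sh, source := m.sh '' dom F m.pt, target := dom F m.pt
     map_source' := by rintro _ ⟨q, hq, rfl⟩; exact hq
     map_target' := fun q hq => ⟨q, hq, rfl⟩
     left_inv' := by rintro _ ⟨q, -, rfl⟩; rfl
     right_inv' := fun _ _ => rfl
     open_source := open_sh m isOpen_interior subset_rfl
     open_target := isOpen_interior
     continuousOn_toFun := cont_pt.continuousOn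
     continuousOn_invFun := fun _ hq => (cont_sh m hq).continuousWithinAt },
    ⟨m.pt, mem_dom h _, m.sh_self⟩, rfl⟩

theorem et_t2 [T2Space X] (h : Coc F) : T2Space (Et F) := by
  refine ⟨fun m m' hne => ?_⟩
  by_cases e : m.pt = m'.pt
  · refine ⟨m.sh '' dom F m.pt, m'.sh '' dom F m'.pt, open_sh m isOpen_interior subset_rfl,
      open_sh m' isOpen_interior subset_rfl, ⟨_, mem_dom h _, m.sh_self⟩,
      ⟨_, mem_dom h _, m'.sh_self⟩, disjoint_left.2 ?_⟩
    rintro _ ⟨q, -, rfl⟩ ⟨q', -, k⟩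
    obtain ⟨p, c⟩ := m
    obtain ⟨p', c'⟩ := m'
    simp only [Et.sh, Et.mk.injEq] at k e
    obtain ⟨rfl, k⟩ := k
    subst e
    exact hne (by congr 1; linarith)
  · exact separated_by_continuous cont_pt e

variable [LocallyConnectedSpace X]

/-- Components are unions of sheets. -/
theorem comp_sh (h : Coc F) (o : Et F) (x : X) : ∀ᶠ q in 𝓝 x, ∀ c : ℤ,
    ((⟨x, c⟩ : Et F).sh q ∈ connectedComponent o ↔ (⟨x, c⟩ : Et F) ∈ connectedComponent o) := by
  obtain ⟨V, h1, h2, h3⟩ := locallyConnectedSpace_iff_subsets_isOpen_isConnected.1 inferInstance x _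
    (isOpen_interior.mem_nhds (mem_dom h x))
  filter_upwards [h2.mem_nhds h3.1] with q hq c
  have k1 : IsPreconnected ((⟨x, c⟩ : Et F).sh '' V) := h3.2.isPreconnected.image _
    fun y hy => (cont_sh ⟨x, c⟩ (h1 hy)).continuousWithinAt
  have k2 : (⟨x, c⟩ : Et F).sh q ∈ connectedComponent (⟨x, c⟩ : Et F) :=
    k1.subset_connectedComponent ⟨x, h3.1, Et.sh_self ⟨x, c⟩⟩ ⟨q, hq, rfl⟩
  constructor
  · intro k3
    rw [connectedComponent_eq k3, ← connectedComponent_eq k2]
    exact mem_connectedComponent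
  · intro k3
    rwa [connectedComponent_eq k3]

theorem comp_open (h : Coc F) (o : Et F) : IsOpen (connectedComponent o) := fun m hm =>
  (comp_sh h o m.pt).mono fun _ hq => (hq m.ht).2 hm

theorem comp_surj [ConnectedSpace X] (h : Coc F) (o : Et F) (x : X) :
    ∃ c, (⟨x, c⟩ : Et F) ∈ connectedComponent o := by
  have key : ∀ x, ∀ᶠ q in 𝓝 x, ((∃ c, (⟨q, c⟩ : Et F) ∈ connectedComponent o) ↔
      ∃ c, (⟨x, c⟩ : Et F) ∈ connectedComponent o) := fun x => by
    filter_upwards [comp_sh h o x] with q hq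
    refine ⟨fun ⟨c, hc⟩ => ⟨c - F x q + F x x, (hq _).1 ?_⟩, fun ⟨c, hc⟩ => ⟨_, (hq c).2 hc⟩⟩
    convert hc using 1
    simp only [Et.sh]
    congr 1
    ring
  have h1 : IsClopen {x | ∃ c, (⟨x, c⟩ : Et F) ∈ connectedComponent o} :=
    ⟨⟨isOpen_iff_mem_nhds.2 fun x hx => (key x).mono fun q hq k => hx (hq.1 k)⟩,
      isOpen_iff_mem_nhds.2 fun x hx => (key x).mono fun q hq => hq.2 hx⟩
  exact (h1.eq_univ ⟨o.pt, o.ht, mem_connectedComponent⟩).ge (mem_univ x)

omit [LocallyConnectedSpace X] in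
theorem comp_tr {o m : Et F} {k : ℤ} (hm : m ∈ connectedComponent o)
    (hk : m.tr k ∈ connectedComponent o) {y : Et F} (hy : y ∈ connectedComponent o) :
    y.tr k ∈ connectedComponent o := by
  rw [connectedComponent_eq hk]
  rw [connectedComponent_eq hm] at hy
  exact (cont_tr k).image_connectedComponent_subset m ⟨y, hy, rfl⟩

theorem top_cover [ConnectedSpace X] [T2Space X] (h : Coc F) (h' : ¬ Cob F) :
    ∃ (M : Type) (_ : TopologicalSpace M) (_ : T2Space M) (_ : ConnectedSpace M) (π : M → X)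
      (g : M ≃ₜ M), IsLocalHomeomorph π ∧ Function.Surjective π ∧
        (∀ p q, π p = π q ↔ ∃ k : ℤ, (g ^ k) p = q) ∧ ∀ (k : ℤ) p, (g ^ k) p = p → k = 0 := by
  have := et_t2 h
  obtain ⟨x₀⟩ : Nonempty X := inferInstance
  set o : Et F := ⟨x₀, 0⟩
  have ho : o ∈ connectedComponent o := mem_connectedComponent
  let Γ : AddSubgroup ℤ :=
    { carrier := {k | o.tr k ∈ connectedComponent o}
      zero_mem' := by simpa [Et.tr_zero] using ho
      add_mem' := fun {a b} ha hb => by
        have := comp_tr ho hb ha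
        rwa [Et.tr_tr] at this
      neg_mem' := fun {a} ha => comp_tr ha (by rwa [Et.tr_tr, add_neg_cancel, Et.tr_zero]) ho }
  obtain ⟨d, hd⟩ := Int.subgroup_cyclic Γ
  have hΓ : ∀ k, o.tr k ∈ connectedComponent o ↔ ∃ l : ℤ, l * d = k := fun k => by
    have : k ∈ Γ ↔ _ := hd ▸ AddSubgroup.mem_closure_singleton
    simp only [smul_eq_mul] at this
    exact this
  have hfib : ∀ m ∈ connectedComponent o, ∀ m' ∈ connectedComponent o, m.pt = m'.pt →
      ∃ l : ℤ, m.tr (l * d) = m' := fun m hm m' hm' e => by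
    have e1 : m.tr (m'.ht - m.ht) = m' := by
      obtain ⟨p, c⟩ := m'
      simp only [Et.tr, add_sub_cancel, e]
    obtain ⟨l, hl⟩ := (hΓ _).1 (comp_tr hm (e1.symm ▸ hm') ho)
    exact ⟨l, hl ▸ e1⟩
  have hd0 : d ≠ 0 := by
    rintro rfl
    choose s hs using comp_surj h o
    refine h' ⟨s, fun p => ?_⟩
    filter_upwards [comp_sh h o p] with q hq
    obtain ⟨l, hl⟩ := hfib _ ((hq _).2 (hs p)) _ (hs q) rfl
    simp only [Et.tr, Et.sh, Et.mk.injEq, mul_zero] at hl
    linarith [hl.2]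
  let T : ℤ → connectedComponent o → connectedComponent o := fun l m =>
    ⟨m.1.tr (l * d), comp_tr ho ((hΓ _).2 ⟨l, rfl⟩) m.2⟩
  have hT : ∀ l l' m, T l' (T l m) = T (l + l') m := fun l l' m =>
    Subtype.ext (by simp only [T, Et.tr_tr, add_mul])
  have hT0 : ∀ m, T 0 m = m := fun m => Subtype.ext (by simp only [T, zero_mul, Et.tr_zero])
  let G : Multiplicative ℤ →* (connectedComponent o ≃ₜ connectedComponent o) := MonoidHom.mk'
    (fun l =>
      { toFun := T l.toAdd, invFun := T (-l.toAdd)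
        left_inv := fun m => by rw [hT, add_neg_cancel, hT0]
        right_inv := fun m => by rw [hT, neg_add_cancel, hT0]
        continuous_toFun := ((cont_tr _).comp continuous_subtype_val).subtype_mk _
        continuous_invFun := ((cont_tr _).comp continuous_subtype_val).subtype_mk _ })
    fun a b => Homeomorph.ext fun m => by
      change T _ m = T _ (T _ m)
      rw [hT, toAdd_mul, add_comm]
  have hG : ∀ (k : ℤ) m, (G (Multiplicative.ofAdd 1) ^ k) m = T k m := fun k m => by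
    rw [← map_zpow, ← ofAdd_zsmul, smul_eq_mul, mul_one]
    rfl
  refine ⟨connectedComponent o, inferInstance, inferInstance,
    isConnected_iff_connectedSpace.1 isConnected_connectedComponent, fun m => m.1.pt,
    G (Multiplicative.ofAdd 1),
    (et_lh h).comp (comp_open h o).isOpenEmbedding_subtypeVal.isLocalHomeomorph,
    fun x => (comp_surj h o x).elim fun c hc => ⟨⟨_, hc⟩, rfl⟩, fun p q => ⟨fun e => ?_, ?_⟩,
    fun k p e => ?_⟩
  · obtain ⟨l, hl⟩ := hfib _ p.2 _ q.2 e
    exact ⟨l, by rw [hG]; exact Subtype.ext hl⟩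
  · rintro ⟨k, rfl⟩
    rw [hG]
    rfl
  · rw [hG] at e
    have := congrArg (fun m => m.1.ht) e
    simp only [T, Et.tr, add_eq_left, mul_eq_zero] at this
    exact this.resolve_right hd0

end Vale.Agent.P267X
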