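import Vale.Agent.P267X.Defs

/-! The complex structure of a covering space. -/

open Set Filter
open scoped Manifold ContDiff Topology

noncomputable section

namespace Vale.Agent.P267X

open Vale.Agent.P267

set_option linter.unusedSectionVars false

variable {X : Type} [TopologicalSpace X]

theorem pull_mfd [ChartedSpace C2 X] [IsManifold 𝓘(ℂ, C2) ω X] {M : Type} [TopologicalSpace M]
    {π : M → X} (lh : IsLocalHomeomorph π) : ∃ _ : ChartedSpace C2 M,
      IsManifold 𝓘(ℂ, C2) ω M ∧ IsLocalDiffeomorph 𝓘(ℂ, C2) 𝓘(ℂ, C2) ω π ∧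
        ∀ G : M → M, Continuous G → (∀ p, π (G p) = π p) → ContMDiff 𝓘(ℂ, C2) 𝓘(ℂ, C2) ω G := by
  have hc := lh.continuous
  choose φ h1 h2 using lh
  have e : ∀ m q, φ m q = π q := fun m q => (congrFun (h2 m) q).symm
  let cs : ChartedSpace C2 M :=
    { atlas := range fun m => (φ m).trans (chartAt C2 (π m))
      chartAt := fun m => (φ m).trans (chartAt C2 (π m))
      mem_chart_source := fun m => ⟨h1 m, by
        change φ m m ∈ (chartAt C2 (π m)).source
        rw [e]
        exact mem_chart_source _ _⟩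
      chart_mem_atlas := fun m => mem_range_self m }
  have e' : ∀ m : M, ⇑(extChartAt 𝓘(ℂ, C2) m) = extChartAt 𝓘(ℂ, C2) (π m) ∘ π := fun m =>
    funext fun q => congrArg (chartAt C2 (π m)) (e m q)
  have hπ : ContMDiff 𝓘(ℂ, C2) 𝓘(ℂ, C2) ω π := fun m =>
    contMDiffAt_iff_target.2 ⟨hc.continuousAt, e' m ▸ contMDiffAt_extChartAt⟩
  refine ⟨cs, isManifold_of_contDiffOn _ _ _ ?_, fun m => ⟨⟨(φ m).toPartialEquiv,
    (φ m).open_source, (φ m).open_target, ?_, fun y hy => ?_⟩, h1 m, fun q _ => (e m q).symm⟩,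
    fun G hG h p => contMDiffAt_iff_target.2 ⟨hG.continuousAt, ?_⟩⟩
  · rintro _ _ ⟨a, rfl⟩ ⟨b, rfl⟩
    have k : ∀ z ∈ ((φ a).trans (chartAt C2 (π a))).target,
        φ b ((φ a).symm ((chartAt C2 (π a)).symm z)) = (chartAt C2 (π a)).symm z := fun z hz =>
      (e b _).trans ((e a _).symm.trans ((φ a).right_inv hz.2))
    refine ((mem_groupoid_of_pregroupoid.1 ((contDiffGroupoid ω 𝓘(ℂ, C2)).compatible
      (chart_mem_atlas C2 (π a)) (chart_mem_atlas C2 (π b)))).1.mono fun z hz =>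
        ⟨⟨hz.1.1.1, ?_⟩, hz.2⟩).congr fun z hz => congrArg (chartAt C2 (π b)) (k z hz.1.1)
    have := hz.1.2.2
    exact (congrArg (· ∈ (chartAt C2 (π b)).source) (k z hz.1.1)).mp this
  · exact hπ.contMDiffOn.congr fun q _ => e m q
  · refine (contMDiffAt_iff_target.2 ⟨(φ m).continuousAt_symm hy, ?_⟩).contMDiffWithinAt
    have k : π ((φ m).symm y) = y := (e m _).symm.trans ((φ m).right_inv hy)
    change ContMDiffAt _ _ _ (extChartAt 𝓘(ℂ, C2) ((φ m).symm y) ∘ (φ m).symm) y
    rw [e', k]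
    refine contMDiffAt_extChartAt.congr_of_eventuallyEq ?_
    filter_upwards [(φ m).eventually_right_inverse hy] with w hw
    exact congrArg (extChartAt 𝓘(ℂ, C2) y) ((e m _).symm.trans hw)
  · rw [e', h, Function.comp_assoc, show π ∘ G = π from funext h, ← e']
    exact contMDiffAt_extChartAt

end Vale.Agent.P267X
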