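import Vale.Agent.P267X.XA
import Vale.Agent.P267X.XB
import Vale.Agent.P267X.XC

/-! The infinite cyclic cover of a surface with first Betti number one. -/

open Set Filter
open scoped Manifold ContDiff Topology

namespace Vale.Agent.P267X

open Vale.Agent.P267

theorem exists_cyclic (X : Type) [TopologicalSpace X] [ChartedSpace C2 X]
    [IsManifold 𝓘(ℂ, C2) ω X] [T2Space X] [CompactSpace X] [ConnectedSpace X]
    (h : firstBetti X = 1) :
    ∃ (M : Type) (_ : TopologicalSpace M) (_ : ChartedSpace C2 M) (_ : IsManifold 𝓘(ℂ, C2) ω M)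
      (_ : T2Space M) (_ : ConnectedSpace M) (π : M → X) (g : M ≃ₜ M), IsCyclic π g := by
  obtain ⟨f, h1, h2⟩ := betti_coc h
  obtain ⟨f', Λ, h3, h4, h5⟩ := coc_fin h1
  obtain ⟨F, h6, h7⟩ := coc_int h3 (fun k => h2 (h4 k)) h5
  have := ChartedSpace.locallyConnectedSpace C2 X
  obtain ⟨M, _, _, _, π, g, k1, k2, k3, k4⟩ := top_cover h6 h7
  obtain ⟨_, _, k5, k6⟩ := pull_mfd k1
  have e : ∀ p, π (g p) = π p := fun p => ((k3 p _).2 ⟨1, rfl⟩).symm
  exact ⟨M, _, _, ‹_›, ‹_›, ‹_›, π, g, k5, k2, k3, k6 g g.continuous e,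
    k6 g.symm g.symm.continuous fun p => by rw [← e, g.apply_symm_apply], k4⟩

end Vale.Agent.P267X
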