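import Vale.Agent.P267X.Defs

/-! An integral cocycle. -/

open Set Filter
open scoped Manifold ContDiff Topology

noncomputable section

namespace Vale.Agent.P267X

open Vale.Agent.P267

set_option linter.unusedSectionVars false

variable {X : Type} [TopologicalSpace X]

theorem betti_coc (h : firstBetti X = 1) : ∃ f : X → X → ℂ, Coc f ∧ ¬ Cob f := by
  by_contra hc
  have h1 : Zc X ≤ Bc X := Submodule.span_mono fun f hf => by
    by_contra hf'
    exact hc ⟨f, hf, hf'⟩
  have h2 : (Bc X).submoduleOf (Zc X) = ⊤ := Submodule.comap_subtype_eq_top.2 h1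
  have : Subsingleton (Zc X ⧸ (Bc X).submoduleOf (Zc X)) :=
    Submodule.Quotient.subsingleton_iff.2 h2
  rw [firstBetti, Module.finrank_zero_of_subsingleton] at h
  exact zero_ne_one h

theorem XA_fin {C : Set X} (hC : IsCompact C) {g : X → ℂ} (h : ∀ q ∈ C, ∀ᶠ y in 𝓝 q, g y = g q) :
    (g '' C).Finite := by
  obtain ⟨t, -, ht⟩ := hC.elim_nhds_subcover (fun q => {y | g y = g q}) h
  refine (t.finite_toSet.image g).subset ?_
  rintro _ ⟨y, hy, rfl⟩
  obtain ⟨q, hq, e⟩ := mem_iUnion₂.1 (ht hy)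
  exact ⟨q, hq, e.symm⟩

theorem coc_fin [CompactSpace X] [T2Space X] {f : X → X → ℂ} (h : Coc f) :
    ∃ (f' : X → X → ℂ) (Λ : Finset ℂ), Coc f' ∧ (Cob f' → Cob f) ∧ ∀ p q, f' p q ∈ Λ := by
  classical
  choose K hK hKV hKc using fun x => local_compact_nhds (h x)
  obtain ⟨t, -, ht⟩ := isCompact_univ.elim_nhds_subcover (fun x => interior (K x))
    fun x _ => interior_mem_nhds.2 (hK x)
  have hi : ∀ p, ∃ x ∈ t, K x ∈ 𝓝 p := fun p => by
    obtain ⟨x, hx, hp⟩ := mem_iUnion₂.1 (ht (mem_univ p))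
    exact ⟨x, hx, mem_interior_iff_mem_nhds.1 hp⟩
  choose i hit hi using hi
  have hfin : (insert 0 (⋃ x ∈ t, ⋃ z ∈ t, (fun y => f x y - f z y) '' (K x ∩ K z))).Finite := by
    refine Finite.insert _ (t.finite_toSet.biUnion fun x _ => t.finite_toSet.biUnion fun z _ =>
      XA_fin ((hKc x).inter (hKc z)) fun q hq => ?_)
    filter_upwards [hKV x hq.1, hKV z hq.2] with y h1 h2
    linear_combination h1 - h2
  refine ⟨fun p q => if q ∈ K (i p) then f (i p) q - f (i q) q else 0, hfin.toFinset,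
    fun p => ?_, ?_, fun p q => ?_⟩
  · filter_upwards [eventually_mem_nhds_iff.2 (hi p)] with q hq
    have a1 := mem_of_mem_nhds hq
    have a2 := mem_of_mem_nhds (hi q)
    filter_upwards [hq, hi q, hKV _ a1, hKV _ a2] with y b1 b2 b3 b4
    rw [if_pos b1, if_pos b2, if_pos a1, if_pos a2]
    linear_combination b3 - b4
  · rintro ⟨s, hs⟩
    refine ⟨fun y => s y + f (i y) y, fun p => ?_⟩
    have a := mem_of_mem_nhds (hi p)
    filter_upwards [hs p, hi p, hKV _ a] with y b1 b2 b3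
    simp only [if_pos b2, if_pos a] at b1
    linear_combination b1 - b3
  · rw [Finite.mem_toFinset]
    dsimp only
    split_ifs with hq
    · exact Or.inr (mem_iUnion₂.2 ⟨i p, hit p, mem_iUnion₂.2
        ⟨i q, hit q, q, ⟨hq, mem_of_mem_nhds (hi q)⟩, rfl⟩⟩)
    · exact Or.inl rfl

theorem coc_int {f : X → X → ℂ} {Λ : Finset ℂ} (h : Coc f) (h' : ¬ Cob f) (hΛ : ∀ p q, f p q ∈ Λ) :
    ∃ F : X → X → ℤ, Coc F ∧ ¬ Cob F := by
  by_contra hc
  have : Module.Finite ℤ (Submodule.span ℤ (Λ : Set ℂ)) :=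
    Module.Finite.span_of_finite ℤ Λ.finite_toSet
  obtain ⟨φ, hφ⟩ : ∃ φ : X → X → Submodule.span ℤ (Λ : Set ℂ), ∀ p q, (φ p q : ℂ) = f p q :=
    ⟨fun p q => ⟨f p q, Submodule.subset_span (hΛ p q)⟩, fun _ _ => rfl⟩
  let b := Module.Free.chooseBasis ℤ (Submodule.span ℤ (Λ : Set ℂ))
  have h1 : ∀ j, Cob fun p q => b.repr (φ p q) j := fun j => by
    by_contra hj
    refine hc ⟨_, fun p => (h p).mono fun q hq => hq.mono fun y hy => ?_, hj⟩
    have e : φ p y - φ q y = φ p q - φ q q := Subtype.ext (by simpa only [AddSubgroupClass.coe_sub,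
      hφ] using hy)
    simpa only [map_sub, Finsupp.sub_apply] using congrArg (fun v => b.repr v j) e
  choose s hs using h1
  refine h' ⟨fun y => ((∑ j, s j y • b j : Submodule.span ℤ (Λ : Set ℂ)) : ℂ), fun p => ?_⟩
  filter_upwards [eventually_all.2 fun j => hs j p] with y hy
  rw [← hφ, ← hφ, ← AddSubgroupClass.coe_sub, ← AddSubgroupClass.coe_sub, ← b.sum_repr (φ p y),
    ← b.sum_repr (φ p p), ← Finset.sum_sub_distrib, ← Finset.sum_sub_distrib]
  simp only [← sub_smul, hy]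

end Vale.Agent.P267X
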